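import Vale.Agent.P183.H994.Icc
import Mathlib.Order.Irreducible
import Mathlib.Order.WellFounded
import Mathlib.Order.Sublattice
import Mathlib.Order.CompleteLattice.Finset
import Mathlib.Data.Fintype.Order

/-! P183: the lattice of all sublattices of a finite distributive lattice. -/

namespace Vale.Agent.P183.H806

open Vale.Agent.P183 Vale.Agent.P183.H996 Vale.Agent.P183.H994

/-- the sublattices which contain the least and the greatest element, ordered by inclusion -/
abbrev Sub01 (D : Type) [Lattice D] [BoundedOrder D] : Type :=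
  {S : Set D // (⊥ ∈ S ∧ ⊤ ∈ S) ∧ ∀ a ∈ S, ∀ b ∈ S, a ⊔ b ∈ S ∧ a ⊓ b ∈ S}

section

theorem prime_of {D : Type} [DistribLattice D] {j a b : D} (hj : SupIrred j) (h : j ≤ a ⊔ b) :
    j ≤ a ∨ j ≤ b :=
  hj.supPrime.2 h

variable {D : Type} [DistribLattice D] [BoundedOrder D]

theorem le_of_irred [Finite D] {a b : D} (h : ∀ j, SupIrred j → j ≤ a → j ≤ b) : a ≤ b := by
  classical
  obtain ⟨s, hs, hs2⟩ := exists_supIrred_decomposition a
  rw [← hs]
  refine Finset.sup_le fun j hj => h j (hs2 hj) ?_
  rw [← hs]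
  exact Finset.le_sup (f := id) hj

theorem prime_sup {ι : Type} {j : D} (hj : SupIrred j) (s : Finset ι) (f : ι → D)
    (h : j ≤ s.sup f) : ∃ i ∈ s, j ≤ f i := by
  classical
  induction s using Finset.induction_on with
  | empty =>
    rw [Finset.sup_empty] at h
    exact absurd (le_bot_iff.1 h ▸ isMin_bot) hj.1
  | insert i s hi ih =>
    rw [Finset.sup_insert] at h
    rcases prime_of hj h with h1 | h1
    · exact ⟨i, Finset.mem_insert_self _ _, h1⟩
    · obtain ⟨k, hk, h2⟩ := ih h1
      exact ⟨k, Finset.mem_insert_of_mem hk, h2⟩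

theorem sup_mem {ι : Type} (S : Sub01 D) (s : Finset ι) (f : ι → D) (h : ∀ i ∈ s, f i ∈ S.1) :
    s.sup f ∈ S.1 := by
  classical
  induction s using Finset.induction_on with
  | empty => exact S.2.1.1
  | insert i s hi ih =>
    rw [Finset.sup_insert]
    exact (S.2.2 _ (h i (Finset.mem_insert_self _ _)) _
      (ih fun k hk => h k (Finset.mem_insert_of_mem hk))).1

theorem inf_mem {ι : Type} (S : Sub01 D) (s : Finset ι) (f : ι → D) (h : ∀ i ∈ s, f i ∈ S.1) :
    s.inf f ∈ S.1 := by
  classical
  induction s using Finset.induction_on with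
  | empty => exact S.2.1.2
  | insert i s hi ih =>
    rw [Finset.inf_insert]
    exact (S.2.2 _ (h i (Finset.mem_insert_self _ _)) _
      (ih fun k hk => h k (Finset.mem_insert_of_mem hk))).2

/-- the join irreducible elements -/
abbrev J (D : Type) [DistribLattice D] : Type := {j : D // SupIrred j}

/-- the order of the join irreducible elements -/
def P (D : Type) [DistribLattice D] : Preords (J D) :=
  ⟨fun i j => i.1 ≤ j.1, fun _ => le_rfl, fun _ _ _ h1 h2 => le_trans h1 h2⟩

/-- the preorder of a sublattice -/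
def Q (S : Sub01 D) : Preords (J D) :=
  ⟨fun i j => ∀ s ∈ S.1, j.1 ≤ s → i.1 ≤ s, fun _ _ _ h => h,
    fun _ _ _ h1 h2 s hs h => h1 s hs (h2 s hs h)⟩

theorem P_le_Q (S : Sub01 D) : P D ≤ Q S := by
  intro i j (h : i.1 ≤ j.1) s _ h2
  exact le_trans h h2

/-- the sublattice of a preorder -/
def R (q : Preords (J D)) : Sub01 D :=
  ⟨{a | ∀ i j : J D, q.1 i j → j.1 ≤ a → i.1 ≤ a},
    ⟨fun i j _ h => absurd (le_bot_iff.1 h ▸ isMin_bot) j.2.1, fun i j _ _ => le_top⟩,
    fun a ha b hb => ⟨fun i j h h2 => by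
      rcases prime_of j.2 h2 with h3 | h3
      · exact le_trans (ha i j h h3) le_sup_left
      · exact le_trans (hb i j h h3) le_sup_right,
      fun i j h h2 => le_inf (ha i j h (le_trans h2 inf_le_left))
        (hb i j h (le_trans h2 inf_le_right))⟩⟩

theorem Q_R [Finite D] (q : Preords (J D)) (hq : P D ≤ q) : Q (R q) = q := by
  classical
  have := Fintype.ofFinite (J D)
  apply Subtype.ext
  funext i j
  apply propext
  constructor
  · intro h
    have h1 : i.1 ≤ (Finset.univ.filter fun k => q.1 k j).sup fun k => k.1 := by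
      refine h _ ?_ ?_
      · intro i' k' hk hk2
        obtain ⟨k, hk3, hk4⟩ := prime_sup k'.2 _ _ hk2
        rw [Finset.mem_filter] at hk3
        have h3 : q.1 k' k := hq k' k hk4
        have h4 : q.1 i' j := q.2.2 _ _ _ hk (q.2.2 _ _ _ h3 hk3.2)
        exact Finset.le_sup (f := fun k : J D => k.1)
          (Finset.mem_filter.2 ⟨Finset.mem_univ _, h4⟩)
      · exact Finset.le_sup (f := fun k : J D => k.1)
          (Finset.mem_filter.2 ⟨Finset.mem_univ _, q.2.1 j⟩)
    obtain ⟨k, hk3, hk4⟩ := prime_sup i.2 _ _ h1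
    rw [Finset.mem_filter] at hk3
    exact q.2.2 _ _ _ (hq i k hk4) hk3.2
  · intro h s hs h2
    exact hs i j h h2

theorem R_Q [Finite D] (S : Sub01 D) : R (Q S) = S := by
  classical
  have := Fintype.ofFinite (J D)
  have := Fintype.ofFinite D
  apply Subtype.ext
  apply Set.Subset.antisymm
  · intro a ha
    -- the least element of `S` above `j`
    let m : J D → D := fun j => (Finset.univ.filter fun s => s ∈ S.1 ∧ j.1 ≤ s).inf id
    have hm1 : ∀ j, m j ∈ S.1 := fun j =>
      inf_mem S _ _ fun s hs => (Finset.mem_filter.1 hs).2.1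
    have hm2 : ∀ j, j.1 ≤ m j := fun j =>
      Finset.le_inf fun s hs => (Finset.mem_filter.1 hs).2.2
    have hm3 : ∀ j, j.1 ≤ a → m j ≤ a := by
      intro j hj
      refine le_of_irred fun i hi hij => ?_
      refine ha ⟨i, hi⟩ j (fun s hs hjs => ?_) hj
      exact le_trans hij (Finset.inf_le (f := id) (Finset.mem_filter.2 ⟨Finset.mem_univ _, hs, hjs⟩))
    have h : (Finset.univ.filter fun j : J D => j.1 ≤ a).sup m = a := by
      apply le_antisymm
      · exact Finset.sup_le fun j hj => hm3 j (Finset.mem_filter.1 hj).2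
      · refine le_of_irred fun j hj hja => ?_
        exact le_trans (hm2 ⟨j, hj⟩)
          (Finset.le_sup (f := m) (Finset.mem_filter.2 ⟨Finset.mem_univ (⟨j, hj⟩ : J D), hja⟩))
    rw [← h]
    exact sup_mem S _ _ fun j _ => hm1 j
  · intro a ha i j h h2
    exact h a ha h2

/-- the lattice of (0,1)-sublattices is dually isomorphic to the lattice of the preorders above
the order of the join irreducible elements -/
def iso [Finite D] : (Sub01 D)ᵒᵈ ≃o {q : Preords (J D) // P D ≤ q} where
  toFun S := ⟨Q (OrderDual.ofDual S), P_le_Q _⟩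
  invFun q := OrderDual.toDual (R q.1)
  left_inv S := congrArg OrderDual.toDual (R_Q (OrderDual.ofDual S))
  right_inv q := Subtype.ext (Q_R q.1 q.2)
  map_rel_iff' := by
    intro S T
    constructor
    · intro h
      have h1 : Q (OrderDual.ofDual S) ≤ Q (OrderDual.ofDual T) := h
      show OrderDual.ofDual T ≤ OrderDual.ofDual S
      rw [← R_Q (OrderDual.ofDual T), ← R_Q (OrderDual.ofDual S)]
      intro a ha i j hij
      exact ha i j (h1 i j hij)
    · intro h
      have h1 : OrderDual.ofDual T ≤ OrderDual.ofDual S := h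
      show Q (OrderDual.ofDual S) ≤ Q (OrderDual.ofDual T)
      intro i j hij s hs
      exact hij s (h1 hs)

/-- all preorders -/
def topP (X : Type) : Preords X := ⟨fun _ _ => True, fun _ => trivial, fun _ _ _ _ _ => trivial⟩

theorem sub01 [Finite D]
    (h : ∀ (X : Type) [Finite X] (a b : Preords X), a ≤ b →
      GroupInterval {x : Preords X // a ≤ x ∧ x ≤ b}) : GroupInterval (Sub01 D) := by
  have h1 := h (J D) (P D) (topP (J D)) (fun _ _ _ => trivial)
  have h2 : GroupInterval {q : Preords (J D) // P D ≤ q} := by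
    refine h1.of_iso ?_
    exact
      { toFun := fun q => ⟨q.1, q.2, fun _ _ _ => trivial⟩
        invFun := fun q => ⟨q.1, q.2.1⟩
        left_inv := fun _ => rfl
        right_inv := fun _ => rfl
        map_rel_iff' := Iff.rfl }
  have h3 : GroupInterval (Sub01 D)ᵒᵈ := h2.of_iso iso
  exact h3.dual

end

section

variable {D : Type} [DistribLattice D]

/-- `D` with a new least and a new greatest element -/
abbrev BT (D : Type) : Type := WithBot (WithTop D)

/-- all sublattices of `D` are the (0,1)-sublattices of `BT D` -/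
def isoBT : Sublattice D ≃o Sub01 (BT D) where
  toFun S := ⟨{x | x = ⊥ ∨ x = ⊤ ∨ ∃ d ∈ S, x = ((d : WithTop D) : BT D)},
    ⟨Or.inl rfl, Or.inr (Or.inl rfl)⟩, by
      rintro a (rfl | rfl | ⟨d, hd, rfl⟩) b (rfl | rfl | ⟨e, he, rfl⟩)
      · exact ⟨by simp, by simp⟩
      · exact ⟨by simp, by simp⟩
      · exact ⟨by rw [bot_sup_eq]; exact Or.inr (Or.inr ⟨e, he, rfl⟩), by simp⟩
      · exact ⟨by simp, by simp⟩
      · exact ⟨by simp, by simp⟩
      · exact ⟨by simp, by rw [top_inf_eq]; exact Or.inr (Or.inr ⟨e, he, rfl⟩)⟩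
      · exact ⟨by rw [sup_bot_eq]; exact Or.inr (Or.inr ⟨d, hd, rfl⟩), by simp⟩
      · exact ⟨by simp, by rw [inf_top_eq]; exact Or.inr (Or.inr ⟨d, hd, rfl⟩)⟩
      · exact ⟨Or.inr (Or.inr ⟨d ⊔ e, S.supClosed hd he, rfl⟩),
          Or.inr (Or.inr ⟨d ⊓ e, S.infClosed hd he, rfl⟩)⟩⟩
  invFun T :=
    { carrier := {d | ((d : WithTop D) : BT D) ∈ T.1}
      supClosed' := fun a ha b hb => (T.2.2 _ ha _ hb).1
      infClosed' := fun a ha b hb => (T.2.2 _ ha _ hb).2 }
  left_inv S := by
    apply SetLike.ext
    intro d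
    show ((((d : WithTop D) : BT D) = ⊥) ∨ (((d : WithTop D) : BT D) = ⊤) ∨
      ∃ e ∈ S, ((d : WithTop D) : BT D) = ((e : WithTop D) : BT D)) ↔ d ∈ S
    constructor
    · rintro (h | h | ⟨e, he, h⟩)
      · exact absurd h (WithBot.coe_ne_bot)
      · exact absurd (WithBot.coe_injective (h.trans (rfl : (⊤ : BT D) = ((⊤ : WithTop D) : BT D))))
          (WithTop.coe_ne_top)
      · have := WithTop.coe_injective (WithBot.coe_injective h)
        rwa [this]
    · intro h
      exact Or.inr (Or.inr ⟨d, h, rfl⟩)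
  right_inv T := by
    apply Subtype.ext
    apply Set.ext
    intro x
    constructor
    · rintro (rfl | rfl | ⟨d, hd, rfl⟩)
      · exact T.2.1.1
      · exact T.2.1.2
      · exact hd
    · intro hx
      induction x using WithBot.recBotCoe with
      | bot => exact Or.inl rfl
      | coe y =>
        induction y using WithTop.recTopCoe with
        | top => exact Or.inr (Or.inl rfl)
        | coe d => exact Or.inr (Or.inr ⟨d, hx, rfl⟩)
  map_rel_iff' := by
    intro S T
    constructor
    · intro h d hd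
      rcases h (Or.inr (Or.inr ⟨d, hd, rfl⟩) : ((d : WithTop D) : BT D) ∈
        {x : BT D | x = ⊥ ∨ x = ⊤ ∨ ∃ d ∈ S, x = ((d : WithTop D) : BT D)}) with h | h | ⟨e, he, h⟩
      · exact absurd h (WithBot.coe_ne_bot)
      · exact absurd (WithBot.coe_injective (h.trans (rfl : (⊤ : BT D) = ((⊤ : WithTop D) : BT D))))
          (WithTop.coe_ne_top)
      · have := WithTop.coe_injective (WithBot.coe_injective h)
        rwa [this]
    · intro h x hx
      rcases hx with hx | hx | ⟨d, hd, hx⟩
      · exact Or.inl hx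
      · exact Or.inr (Or.inl hx)
      · exact Or.inr (Or.inr ⟨d, h hd, hx⟩)

theorem sublattices [Finite D]
    (h : ∀ (X : Type) [Finite X] (a b : Preords X), a ≤ b →
      GroupInterval {x : Preords X // a ≤ x ∧ x ≤ b}) : GroupInterval (Sublattice D) := by
  have h1 : Finite (BT D) := inferInstanceAs (Finite (Option (Option D)))
  exact (sub01 (D := BT D) h).of_iso isoBT

end

/-- If all intervals of lattices of preorders are intervals in subgroup lattices of finite groups,
then so are, for every finite distributive lattice, the lattice of all its sublattices (the empty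
one included), the lattice of all its sublattices which contain the bounds, and all their
intervals. -/
theorem main
    (h : ∀ (X : Type) [Finite X] (a b : Preords X), a ≤ b →
      GroupInterval {x : Preords X // a ≤ x ∧ x ≤ b}) :
    (∀ (D : Type) [DistribLattice D] [Finite D], GroupInterval (Sublattice D) ∧
      ∀ E F : Sublattice D, E ≤ F → GroupInterval {S : Sublattice D // E ≤ S ∧ S ≤ F}) ∧
    (∀ (D : Type) [DistribLattice D] [BoundedOrder D] [Finite D], GroupInterval (Sub01 D) ∧
      ∀ E F : Sub01 D, E ≤ F → GroupInterval {S : Sub01 D // E ≤ S ∧ S ≤ F}) :=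
  ⟨fun _ _ _ => ⟨sublattices h, fun _ _ hEF => icc (sublattices h) hEF⟩,
    fun _ _ _ _ => ⟨sub01 h, fun _ _ hEF => icc (sub01 h) hEF⟩⟩

end Vale.Agent.P183.H806
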